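import Vale.Agent.P331.Bdl.B1
import Mathlib.MeasureTheory.Measure.WithDensity

/-!
# One-sample matroid prophet inequalities, almighty adversary: static rules

A *static rule* is given by a finite random seed `r`, a set of test elements, and a family of legal
sets of test elements which depends only on the seed and on the order of the keys of the sample
elements and of the elements of the set.  A test element is accepted if it can be added to every
legal set of test elements seen so far.  The competitive ratio is at least the smallest probability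
that an element of the greedy basis is a test element which can be added to every legal set.
-/

set_option autoImplicit false

noncomputable section

namespace Vale.Agent.P331.H819

open MeasureTheory Set Vale.Agent.P331 Vale.Agent.P331.Osel
open scoped ENNReal NNReal Classical

section core

variable {E : Type*}

/-- Competitiveness from a finite inequality for all pairs of values (finite seed with arbitrary
weights). -/
theorem isCompetitive_of_core_w [Fintype E] [DecidableEq E] {M : Matroid E} (R : OnlineRule M)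
    [Fintype R.Seed] [MeasurableSingletonClass R.Seed] (q : ℝ≥0∞)
    (hcore : ∀ x y : E → ℝ≥0, ∀ o : R.Seed → (E → Bool) → Order E,
      q * ∑ c : E → Bool, opt M (sel c y x) ≤
        ∑ r, R.law {r} * ∑ c : E → Bool, R.gain r (sel c x y) (sel c y x) (o r c)) :
    R.IsCompetitive q := by
  intro D hD _ π hπ
  set P := Measure.pi D with hP
  -- the worst order
  set worst : R.Seed → (E → ℝ≥0) → (E → ℝ≥0) → ℝ≥0∞ := fun r s v => ⨅ o, R.gain r s v o with hw
  have hworst : Measurable fun ω : R.Seed × (E → ℝ≥0) × (E → ℝ≥0) => worst ω.1 ω.2.1 ω.2.2 := by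
    exact Measurable.iInf fun o => measurable_gain R o
  have hworst' : ∀ r, Measurable fun p : (E → ℝ≥0) × (E → ℝ≥0) => worst r p.1 p.2 := by
    intro r
    exact hworst.comp (measurable_const.prodMk measurable_id)
  set T : ℝ≥0∞ := (Fintype.card (E → Bool) : ℝ≥0∞) with hT
  have hT0 : T ≠ 0 := by
    rw [hT]; exact_mod_cast Fintype.card_ne_zero
  have hTt : T ≠ ∞ := ENNReal.natCast_ne_top _
  -- step 1
  have h1 : ∫⁻ ω, worst ω.1 ω.2.1 ω.2.2 ∂(R.law.prod (P.prod P)) ≤
      ∫⁻ ω, R.gain ω.1 ω.2.1 ω.2.2 (π ω) ∂(R.law.prod (P.prod P)) :=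
    lintegral_mono fun ω => iInf_le _ _
  refine le_trans ?_ h1
  -- step 2
  have h2 : ∫⁻ ω, worst ω.1 ω.2.1 ω.2.2 ∂(R.law.prod (P.prod P)) =
      ∫⁻ p, ∑ r, R.law {r} * worst r p.1 p.2 ∂(P.prod P) := by
    rw [lintegral_prod _ hworst.aemeasurable, lintegral_fintype, lintegral_finsetSum]
    · refine Finset.sum_congr rfl fun r _ => ?_
      rw [mul_comm, lintegral_const_mul _ (hworst' r)]
    · intro r _
      exact (hworst' r).const_mul _
  rw [h2]
  -- step 3: symmetrization
  have hmeasSum : Measurable fun p : (E → ℝ≥0) × (E → ℝ≥0) =>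
      ∑ r, R.law {r} * worst r p.1 p.2 :=
    Finset.measurable_sum _ fun r _ => (hworst' r).const_mul _
  have hPprob : IsProbabilityMeasure P := by rw [hP]; infer_instance
  have hm : Measurable fun p : (E → ℝ≥0) × (E → ℝ≥0) => opt M p.2 :=
    (measurable_opt M).comp measurable_snd
  have h3 : T * ∫⁻ p, ∑ r, R.law {r} * worst r p.1 p.2 ∂(P.prod P) =
      ∫⁻ p, ∑ c : E → Bool, ∑ r, R.law {r} * worst r (sel c p.1 p.2) (sel c p.2 p.1)
        ∂(P.prod P) :=
    symm_lintegral D (fun s v => ∑ r, R.law {r} * worst r s v) hmeasSum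
  have h4 : T * ∫⁻ v, opt M v ∂P =
      ∫⁻ p, ∑ c : E → Bool, opt M (sel c p.2 p.1) ∂(P.prod P) := by
    have h4a := symm_lintegral D (fun _ v => opt M v) hm
    rw [← h4a]
    congr 1
    exact (measurePreserving_snd.lintegral_comp (measurable_opt M)).symm
  have hmS : Measurable fun p : (E → ℝ≥0) × (E → ℝ≥0) =>
      ∑ c : E → Bool, opt M (sel c p.2 p.1) := by
    refine Finset.measurable_sum _ fun c _ => ?_
    have hsel : Measurable fun p : (E → ℝ≥0) × (E → ℝ≥0) => sel c p.2 p.1 :=
      measurable_snd.comp (measurePreserving_swap_sel D c).measurable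
    exact (measurable_opt M).comp hsel
  clear_value worst P
  -- step 4: pointwise inequality
  have h5 : ∀ p : (E → ℝ≥0) × (E → ℝ≥0),
      q * ∑ c : E → Bool, opt M (sel c p.2 p.1) ≤
        ∑ c : E → Bool, ∑ r, R.law {r} * worst r (sel c p.1 p.2) (sel c p.2 p.1) := by
    intro p
    have hex : ∀ r : R.Seed, ∀ c : E → Bool, ∃ o : Order E,
        R.gain r (sel c p.1 p.2) (sel c p.2 p.1) o = worst r (sel c p.1 p.2) (sel c p.2 p.1) := by
      intro r c
      rw [hw]
      exact exists_eq_ciInf_of_finite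
    choose o ho using hex
    have h6 := hcore p.1 p.2 o
    simp only [ho] at h6
    rw [Finset.sum_comm]
    refine h6.trans (le_of_eq (Finset.sum_congr rfl fun r _ => ?_))
    rw [Finset.mul_sum]
  have h6 : q * (T * ∫⁻ v, opt M v ∂P) ≤
      T * ∫⁻ p, ∑ r, R.law {r} * worst r p.1 p.2 ∂(P.prod P) := by
    rw [h3, h4, ← lintegral_const_mul _ hmS]
    exact lintegral_mono h5
  have h7 : q * (T * ∫⁻ v, opt M v ∂P) = T * (q * ∫⁻ v, opt M v ∂P) := by ring
  rw [h7, ENNReal.mul_le_mul_iff_right hT0 hTt] at h6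
  exact h6

end core

section rule

variable {E : Type} [Fintype E]

/-- the order of the keys -/
def klt (u : E → ℝ≥0) (e f : E) : Prop := key u e < key u f

/-- A static rule (combinatorial data): seeds `Sd`, test elements `T r`, legal sets `Leg r lt B`,
where `lt e f` means that `e` is lighter than `f`. -/
structure Data (M : Matroid E) where
  Sd : Type
  [fin : Fintype Sd]
  w : Sd → ℝ≥0∞
  w_sum : ∑ r, w r = 1
  T : Sd → E → Prop
  Leg : Sd → (E → E → Prop) → Set E → Prop
  empty : ∀ r lt, Leg r lt ∅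
  /-- legality depends only on the order of the sample elements and of the elements of the set -/
  loc : ∀ (r : Sd) (lt lt' : E → E → Prop) (B : Set E), (∀ f ∈ B, T r f) →
    (∀ f g, (f ∈ B ∨ ¬ T r f) → (g ∈ B ∨ ¬ T r g) → (lt f g ↔ lt' f g)) →
    Leg r lt B → Leg r lt' B
  indep : ∀ (r : Sd) (lt : E → E → Prop), IsStrictTotalOrder E lt → ∀ B : Set E,
    (∀ f ∈ B, T r f) → Leg r lt B → M.Indep B

attribute [instance] Data.fin

namespace Data

variable {M : Matroid E} (D : Data M)

/-- the element `z` can be added to every legal set of other test elements -/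
def Safe (r : D.Sd) (lt : E → E → Prop) (z : E) : Prop :=
  ∀ B : Set E, (∀ f ∈ B, f ≠ z ∧ D.T r f) → D.Leg r lt B → D.Leg r lt (insert z B)

/-- the value of an element: the one in the set of pairs, otherwise the sample value -/
def vl (s : E → ℝ≥0) (B : Set (E × ℝ≥0)) (g : E) : ℝ≥0 :=
  if h : ∃ w, (g, w) ∈ B then h.choose else s g

/-- legality of a set of pairs -/
def LP (r : D.Sd) (s : E → ℝ≥0) (B : Set (E × ℝ≥0)) : Prop :=
  D.Leg r (klt (vl s B)) (Prod.fst '' B)

/-- legality of a set of elements, values `v` on the set and `s` elsewhere -/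
def LE (r : D.Sd) (s v : E → ℝ≥0) (B : Set E) : Prop :=
  D.Leg r (klt fun g => if g ∈ B then v g else s g) B

/-- the decisions of the rule -/
def dec (r : D.Sd) (s : E → ℝ≥0) (h : List (E × ℝ≥0)) (x : E × ℝ≥0) : Prop :=
  D.T r x.1 ∧ ∀ B : Set (E × ℝ≥0), (∀ p ∈ B, p ∈ h ∧ D.T r p.1) → D.LP r s B →
    D.LP r s (insert x B)

variable {D}

theorem LP_image (r : D.Sd) (s v : E → ℝ≥0) (B : Set E) :
    D.LP r s ((fun f => (f, v f)) '' B) ↔ D.LE r s v B := by
  have h1 : vl s ((fun f => (f, v f)) '' B) = fun g => if g ∈ B then v g else s g := by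
    funext g
    unfold vl
    by_cases hg : g ∈ B
    · have hex : ∃ w, (g, w) ∈ (fun f => (f, v f)) '' B := ⟨v g, g, hg, rfl⟩
      rw [dif_pos hex, if_pos hg]
      obtain ⟨f, _, hf⟩ := hex.choose_spec
      have h2 : f = g := congrArg Prod.fst hf
      have h3 : v f = hex.choose := congrArg Prod.snd hf
      rw [← h3, h2]
    · have hex : ¬ ∃ w, (g, w) ∈ (fun f => (f, v f)) '' B := by
        rintro ⟨w, f, hf, hfw⟩
        have h2 : f = g := congrArg Prod.fst hfw
        exact hg (h2 ▸ hf)
      rw [dif_neg hex, if_neg hg]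
  have h2 : Prod.fst '' ((fun f => (f, v f)) '' B) = B := by
    rw [image_image]
    simp
  unfold LP LE
  rw [h1, h2]

theorem dec_iff (r : D.Sd) (s v : E → ℝ≥0) (l : List E) (e : E) :
    D.dec r s (hs v l) (e, v e) ↔ D.T r e ∧ ∀ B : Set E, (∀ f ∈ B, f ∈ l ∧ D.T r f) →
      D.LE r s v B → D.LE r s v (insert e B) := by
  unfold dec
  refine and_congr Iff.rfl ?_
  constructor
  · intro h B hB hl
    have h1 := h ((fun f => (f, v f)) '' B) ?_ ((LP_image r s v B).2 hl)
    · rw [← image_insert_eq (f := fun f => (f, v f)), LP_image] at h1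
      exact h1
    · rintro _ ⟨f, hf, rfl⟩
      exact ⟨List.mem_map.2 ⟨f, (hB f hf).1, rfl⟩, (hB f hf).2⟩
  · intro h B hB hl
    have h1 : B = (fun f => (f, v f)) '' {f | (f, v f) ∈ B} := by
      ext p
      constructor
      · intro hp
        obtain ⟨f, _, rfl⟩ := List.mem_map.1 (hB p hp).1
        exact ⟨f, hp, rfl⟩
      · rintro ⟨f, hf, rfl⟩
        exact hf
    rw [h1] at hl ⊢
    rw [LP_image] at hl
    rw [← image_insert_eq (f := fun f => (f, v f)), LP_image]
    refine h _ ?_ hl
    intro f hf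
    have h2 := hB _ hf
    refine ⟨?_, h2.2⟩
    obtain ⟨g, hg, hgf⟩ := List.mem_map.1 h2.1
    have h3 : g = f := congrArg Prod.fst hgf
    rwa [← h3]

/-- The accepted set is legal. -/
theorem LE_accepted (r : D.Sd) (s v : E → ℝ≥0) (l : List E) :
    D.LE r s v (accepted (D.dec r s) (hs v l) : Set E) ∧
      ∀ f ∈ accepted (D.dec r s) (hs v l), f ∈ l ∧ D.T r f := by
  induction l with
  | nil =>
    refine ⟨?_, ?_⟩
    · show D.LE r s v ((∅ : Finset E) : Set E)
      unfold LE
      rw [Finset.coe_empty]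
      exact D.empty r _
    · intro f hf
      exact absurd hf (by simp [hs, accepted])
  | cons e l ih =>
    change D.LE r s v (accepted (D.dec r s) ((e, v e) :: hs v l) : Set E) ∧
      ∀ f ∈ accepted (D.dec r s) ((e, v e) :: hs v l), f ∈ e :: l ∧ D.T r f
    rw [accepted]
    split_ifs with h
    · have h1 := (dec_iff r s v l e).1 h
      refine ⟨?_, ?_⟩
      · rw [Finset.coe_insert]
        exact h1.2 _ (fun f hf => ih.2 f hf) ih.1
      · intro f hf
        rcases Finset.mem_insert.1 hf with rfl | hf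
        · exact ⟨List.mem_cons_self, h1.1⟩
        · exact ⟨List.mem_cons_of_mem _ (ih.2 f hf).1, (ih.2 f hf).2⟩
    · exact ⟨ih.1, fun f hf => ⟨List.mem_cons_of_mem _ (ih.2 f hf).1, (ih.2 f hf).2⟩⟩

theorem klt_strict (u : E → ℝ≥0) : IsStrictTotalOrder E (klt u) where
  trichotomous := by
    intro a b h1 h2
    rcases lt_trichotomy (key u a) (key u b) with h | h | h
    · exact absurd h h1
    · exact key_inj u h
    · exact absurd h h2
  irrefl := fun a h => lt_irrefl _ h
  trans := fun a b c h1 h2 => lt_trans h1 h2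

/-- The accepted set is independent. -/
theorem indep_accepted (r : D.Sd) (s : E → ℝ≥0) (h : List (E × ℝ≥0))
    (hnd : (h.map Prod.fst).Nodup) : M.Indep (accepted (D.dec r s) h : Set E) := by
  obtain ⟨u, hu⟩ := exists_hs h hnd
  set l := h.map Prod.fst with hl
  rw [hu]
  obtain ⟨h1, h2⟩ := LE_accepted (D := D) r s u l
  exact D.indep r _ (klt_strict _) _ (fun f hf => (h2 f hf).2) h1

/-- A safe test element is accepted in every order. -/
theorem mem_accepted_of_good {r : D.Sd} {s v : E → ℝ≥0} {l : List E} (hnd : l.Nodup) {z : E}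
    (hz : z ∈ l) (hT : D.T r z) (hg : ∀ B : Set E, (∀ f ∈ B, f ≠ z ∧ D.T r f) →
      D.LE r s v B → D.LE r s v (insert z B)) : z ∈ accepted (D.dec r s) (hs v l) := by
  rw [mem_accepted_iff hnd hz, dec_iff]
  refine ⟨hT, fun B hB => hg B fun f hf => ⟨?_, (hB f hf).2⟩⟩
  rintro rfl
  exact notMem_bef hnd f (hB f hf).1

theorem LE_congr {r : D.Sd} {s v u : E → ℝ≥0} (hs : ∀ f, ¬ D.T r f → s f = u f)
    (hv : ∀ f, D.T r f → v f = u f) {B : Set E} (hB : ∀ f ∈ B, D.T r f) :
    D.LE r s v B ↔ D.Leg r (klt u) B := by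
  have h : ∀ f, (f ∈ B ∨ ¬ D.T r f) → (if f ∈ B then v f else s f) = u f := by
    intro f hf
    by_cases h : f ∈ B
    · rw [if_pos h, hv f (hB f h)]
    · rw [if_neg h, hs f (hf.resolve_left h)]
  have h2 : ∀ f g, (f ∈ B ∨ ¬ D.T r f) → (g ∈ B ∨ ¬ D.T r g) →
      (klt (fun g => if g ∈ B then v g else s g) f g ↔ klt u f g) := by
    intro f g hf hg
    unfold klt
    rw [key_eq, key_eq, key_eq, key_eq, h f hf, h g hg]
  exact ⟨D.loc r _ _ B hB h2, D.loc r _ _ B hB fun f g hf hg => (h2 f g hf hg).symm⟩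

/-- legality is measurable -/
theorem measurableSet_LE {Ω : Type*} [MeasurableSpace Ω] (r : D.Sd) {s v : Ω → E → ℝ≥0}
    (hs' : ∀ y, Measurable fun ω => s ω y) (hv : ∀ y, Measurable fun ω => v ω y) (B : Set E) :
    MeasurableSet {ω | D.LE r (s ω) (v ω) B} := by
  have h := measurableSet_of_mem (E := E × E) (fun ω => {p : E × E |
    klt (fun g => if g ∈ B then v ω g else s ω g) p.1 p.2}) (fun p => ?_)
    (fun X => D.Leg r (fun a b => (a, b) ∈ X) B)
  · exact h
  · have hm : ∀ g, Measurable fun ω => if g ∈ B then v ω g else s ω g := by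
      intro g
      by_cases hg : g ∈ B
      · simp only [if_pos hg]
        exact hv g
      · simp only [if_neg hg]
        exact hs' g
    exact measurableSet_kp_lt p.1 p.2 (hm p.1) (hm p.2)

/-- The decisions of the rule are measurable. -/
theorem measurableSet_dec {Ω : Type*} [MeasurableSpace Ω] (r : D.Sd) {s v : Ω → E → ℝ≥0}
    (hs' : ∀ y, Measurable fun ω => s ω y) (hv : ∀ y, Measurable fun ω => v ω y) (l : List E)
    (e : E) : MeasurableSet {ω | D.dec r (s ω) (hs (v ω) l) (e, v ω e)} := by
  have h : {ω | D.dec r (s ω) (hs (v ω) l) (e, v ω e)} = {_ω | D.T r e} ∩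
      ⋂ B : Set E, ({_ω | ¬ ∀ f ∈ B, f ∈ l ∧ D.T r f} ∪ ({ω | D.LE r (s ω) (v ω) B}ᶜ ∪
        {ω | D.LE r (s ω) (v ω) (insert e B)})) := by
    ext ω
    change D.dec r (s ω) (hs (v ω) l) (e, v ω e) ↔ _
    rw [dec_iff]
    constructor
    · rintro ⟨h1, h2⟩
      refine ⟨h1, mem_iInter.2 fun B => ?_⟩
      by_cases hB : ∀ f ∈ B, f ∈ l ∧ D.T r f
      · by_cases hl : D.LE r (s ω) (v ω) B
        · exact Or.inr (Or.inr (h2 B hB hl))
        · exact Or.inr (Or.inl hl)
      · exact Or.inl hB
    · rintro ⟨h1, h2⟩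
      refine ⟨h1, fun B hB hl => ?_⟩
      rcases mem_iInter.1 h2 B with h3 | h3 | h3
      · exact absurd hB h3
      · exact absurd hl h3
      · exact h3
  rw [h]
  exact (MeasurableSet.const _).inter (MeasurableSet.iInter fun B => (MeasurableSet.const _).union
    ((measurableSet_LE r hs' hv B).compl.union (measurableSet_LE r hs' hv (insert e B))))

variable (D)

/-- the law of the seed -/
def law : @Measure D.Sd ⊤ := letI : MeasurableSpace D.Sd := ⊤; Measure.count.withDensity D.w

theorem law_singleton (r : D.Sd) : letI : MeasurableSpace D.Sd := ⊤; D.law {r} = D.w r := by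
  let _ : MeasurableSpace D.Sd := ⊤
  have _ : MeasurableSingletonClass D.Sd := ⟨fun _ => trivial⟩
  show (Measure.count.withDensity D.w) {r} = D.w r
  rw [withDensity_apply _ (MeasurableSet.singleton r), lintegral_singleton, Measure.count_singleton,
    mul_one]

theorem law_prob : letI : MeasurableSpace D.Sd := ⊤; IsProbabilityMeasure D.law := by
  let _ : MeasurableSpace D.Sd := ⊤
  have _ : MeasurableSingletonClass D.Sd := ⟨fun _ => trivial⟩
  constructor
  show (Measure.count.withDensity D.w) univ = 1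
  rw [withDensity_apply _ MeasurableSet.univ, Measure.restrict_univ, lintegral_count, tsum_fintype]
  exact D.w_sum

/-- The static rule. -/
def rule : OnlineRule M :=
  letI : MeasurableSpace D.Sd := ⊤
  haveI : MeasurableSingletonClass D.Sd := ⟨fun _ => trivial⟩
  { Seed := D.Sd
    law := D.law
    isProb := D.law_prob
    accept := D.dec
    measurable_accept := by
      intro l e
      have hset : {ω : D.Sd × (E → ℝ≥0) × (E → ℝ≥0) |
          D.dec ω.1 ω.2.1 (l.map fun f => (f, ω.2.2 f)) (e, ω.2.2 e)} =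
          ⋃ r : D.Sd, {r} ×ˢ {p : (E → ℝ≥0) × (E → ℝ≥0) |
            D.dec r p.1 (hs p.2 l) (e, p.2 e)} := by
        ext ⟨r, s, v⟩
        simp only [mem_iUnion, mem_prod, mem_singleton_iff]
        constructor
        · intro h
          exact ⟨r, rfl, h⟩
        · rintro ⟨r', rfl, h⟩
          exact h
      rw [hset]
      exact MeasurableSet.iUnion fun r => (MeasurableSet.singleton r).prod
        (measurableSet_dec r (fun y => (measurable_pi_apply y).comp measurable_fst)
          (fun y => (measurable_pi_apply y).comp measurable_snd) l e)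
    feasible := by
      intro r s h hnd
      exact indep_accepted r s h hnd }

/-- exchange of the coins outside the test elements -/
def kap (r : D.Sd) (c : E → Bool) (e : E) : Bool := if D.T r e then c e else !(c e)

theorem kap_invol (r : D.Sd) : Function.Involutive (D.kap r) := by
  intro c
  funext e
  unfold kap
  by_cases h : D.T r e
  · simp [h]
  · simp [h]

/-- The gain for one choice of the seed and the coins. -/
theorem gain_ge (r : D.Sd) (c : E → Bool) (x y : E → ℝ≥0) (o : Order E) :
    ∑ z : E with Gr M (sel c y x) z ∧ D.T r z ∧ D.Safe r (klt (sel c y x)) z,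
        (sel c y x z : ℝ≥0∞) ≤
      ∑ e ∈ accepted (D.dec r (sel (D.kap r c) x y)) (history (sel (D.kap r c) y x) o),
        (sel (D.kap r c) y x e : ℝ≥0∞) := by
  set u := sel c y x with hu
  set s := sel (D.kap r c) x y with hs'
  set v := sel (D.kap r c) y x with hv'
  have hsu : ∀ f, ¬ D.T r f → s f = u f := by
    intro f hf
    rw [hs', hu]
    unfold sel kap
    rw [if_neg hf]
    cases c f <;> simp
  have hvu : ∀ f, D.T r f → v f = u f := by
    intro f hf
    rw [hv', hu]
    unfold sel kap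
    rw [if_pos hf]
  have hhist : history v o = hs v o.1.reverse := by
    unfold history hs
    rw [List.map_reverse]
  rw [hhist]
  have hsub : (Finset.univ.filter fun z : E => Gr M u z ∧ D.T r z ∧ D.Safe r (klt u) z) ⊆
      accepted (D.dec r s) (hs v o.1.reverse) := by
    intro z hz
    obtain ⟨_, hzT, hsafe⟩ := (Finset.mem_filter.1 hz).2
    refine mem_accepted_of_good (List.nodup_reverse.2 o.2.1) (List.mem_reverse.2 (o.2.2 z))
      hzT ?_
    intro B hB hl
    have hB' : ∀ f ∈ insert z B, D.T r f := by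
      intro f hf
      rcases hf with rfl | hf
      · exact hzT
      · exact (hB f hf).2
    rw [LE_congr hsu hvu (fun f hf => (hB f hf).2)] at hl
    rw [LE_congr hsu hvu hB']
    exact hsafe B hB hl
  refine le_trans ?_ (Finset.sum_le_sum_of_subset hsub)
  refine le_of_eq (Finset.sum_congr rfl fun z hz => ?_)
  rw [hvu z (Finset.mem_filter.1 hz).2.2.1]

theorem opt_le_Gr (hM : M.E = univ) (v : E → ℝ≥0) :
    opt M v ≤ ∑ e : E with Gr M v e, (v e : ℝ≥0∞) := by
  unfold opt
  apply iSup_le
  intro I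
  apply iSup_le
  intro hI
  exact sum_le_greedy hM (key v) (v := v) (fun e f h => le_of_key_lt h) I
    (Finset.univ.filter (Gr M v)) hI
    (fun g hg => Finset.mem_filter.2 ⟨Finset.mem_univ _, hg⟩)

/-- The core inequality. -/
theorem core (hM : M.E = univ) {q : ℝ≥0∞}
    (hq : ∀ lt : E → E → Prop, IsStrictTotalOrder E lt → ∀ z, z ∉ M.closure {f | lt z f} →
      q ≤ ∑ r, D.w r * (if D.T r z ∧ D.Safe r lt z then 1 else 0))
    (x y : E → ℝ≥0) (o : D.Sd → (E → Bool) → Order E) :
    q * ∑ c : E → Bool, opt M (sel c y x) ≤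
      ∑ r : D.Sd, D.w r * ∑ c : E → Bool,
        ∑ e ∈ accepted (D.dec r (sel c x y)) (history (sel c y x) (o r c)),
          (sel c y x e : ℝ≥0∞) := by
  have h1 : ∀ r : D.Sd, ∑ c : E → Bool,
        ∑ e ∈ accepted (D.dec r (sel c x y)) (history (sel c y x) (o r c)),
          (sel c y x e : ℝ≥0∞) =
      ∑ c : E → Bool, ∑ e ∈ accepted (D.dec r (sel (D.kap r c) x y))
          (history (sel (D.kap r c) y x) (o r (D.kap r c))),
          (sel (D.kap r c) y x e : ℝ≥0∞) := fun r =>
    (Equiv.sum_comp (D.kap_invol r).toPerm (fun c : E → Bool =>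
        ∑ e ∈ accepted (D.dec r (sel c x y)) (history (sel c y x) (o r c)),
          (sel c y x e : ℝ≥0∞))).symm
  have h1' : ∑ r : D.Sd, D.w r * ∑ c : E → Bool,
        ∑ e ∈ accepted (D.dec r (sel c x y)) (history (sel c y x) (o r c)),
          (sel c y x e : ℝ≥0∞) =
      ∑ r : D.Sd, D.w r * ∑ c : E → Bool, ∑ e ∈ accepted (D.dec r (sel (D.kap r c) x y))
          (history (sel (D.kap r c) y x) (o r (D.kap r c))),
          (sel (D.kap r c) y x e : ℝ≥0∞) := Finset.sum_congr rfl fun r _ => by rw [h1 r]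
  rw [h1']
  have h2 : ∑ r : D.Sd, D.w r * ∑ c : E → Bool,
      ∑ z : E with Gr M (sel c y x) z ∧ D.T r z ∧ D.Safe r (klt (sel c y x)) z,
        (sel c y x z : ℝ≥0∞) ≤
      ∑ r : D.Sd, D.w r * ∑ c : E → Bool, ∑ e ∈ accepted (D.dec r
          (sel (D.kap r c) x y)) (history (sel (D.kap r c) y x) (o r (D.kap r c))),
          (sel (D.kap r c) y x e : ℝ≥0∞) :=
    Finset.sum_le_sum fun r _ => mul_le_mul_right
      (Finset.sum_le_sum fun c _ => D.gain_ge r c x y _) _
  refine le_trans ?_ h2
  have h2' : ∑ r : D.Sd, D.w r * ∑ c : E → Bool,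
      ∑ z : E with Gr M (sel c y x) z ∧ D.T r z ∧ D.Safe r (klt (sel c y x)) z,
        (sel c y x z : ℝ≥0∞) = ∑ c : E → Bool, ∑ r : D.Sd, D.w r *
      ∑ z : E with Gr M (sel c y x) z ∧ D.T r z ∧ D.Safe r (klt (sel c y x)) z,
        (sel c y x z : ℝ≥0∞) := by
    rw [Finset.sum_comm]
    exact Finset.sum_congr rfl fun r _ => Finset.mul_sum _ _ _
  rw [h2', Finset.mul_sum]
  refine Finset.sum_le_sum fun c _ => ?_
  set u := sel c y x with hu
  have h3 : ∑ r : D.Sd, D.w r *
      ∑ z : E with Gr M u z ∧ D.T r z ∧ D.Safe r (klt u) z, (u z : ℝ≥0∞) =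
      ∑ z : E with Gr M u z, (∑ r : D.Sd, D.w r *
        (if D.T r z ∧ D.Safe r (klt u) z then 1 else 0)) * (u z : ℝ≥0∞) := by
    have h4 : ∀ r : D.Sd, D.w r *
        ∑ z : E with Gr M u z ∧ D.T r z ∧ D.Safe r (klt u) z, (u z : ℝ≥0∞) =
        ∑ z : E with Gr M u z, D.w r * (if D.T r z ∧ D.Safe r (klt u) z then 1 else 0) *
          (u z : ℝ≥0∞) := by
      intro r
      rw [← Finset.filter_filter, Finset.sum_filter, Finset.mul_sum]
      refine Finset.sum_congr rfl fun z _ => ?_
      split_ifs <;> simp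
    rw [Finset.sum_congr rfl fun r _ => h4 r, Finset.sum_comm]
    refine Finset.sum_congr rfl fun z _ => ?_
    rw [Finset.sum_mul]
  rw [h3]
  calc q * opt M u ≤ q * ∑ e : E with Gr M u e, (u e : ℝ≥0∞) :=
        mul_le_mul_right (opt_le_Gr hM u) q
    _ = ∑ z : E with Gr M u z, q * (u z : ℝ≥0∞) := Finset.mul_sum _ _ _
    _ ≤ _ := by
        refine Finset.sum_le_sum fun z hz => mul_le_mul_left ?_ _
        exact hq (klt u) (klt_strict u) z (Finset.mem_filter.1 hz).2

/-- **Reduction.** The static rule is `q`-competitive if every element of the greedy basis is, with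
probability at least `q`, a safe test element. -/
theorem competitive (hM : M.E = univ) {q : ℝ≥0∞}
    (hq : ∀ lt : E → E → Prop, IsStrictTotalOrder E lt → ∀ z, z ∉ M.closure {f | lt z f} →
      q ≤ ∑ r, D.w r * (if D.T r z ∧ D.Safe r lt z then 1 else 0)) :
    D.rule.IsCompetitive q := by
  let _ : MeasurableSpace D.Sd := ⊤
  have _ : MeasurableSingletonClass D.Sd := ⟨fun _ => trivial⟩
  let _ : Fintype D.rule.Seed := (inferInstance : Fintype D.Sd)
  have _ : MeasurableSingletonClass D.rule.Seed := ⟨fun _ => trivial⟩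
  refine isCompetitive_of_core_w D.rule q ?_
  intro x y o
  have h := D.core hM hq x y o
  refine h.trans (le_of_eq (Finset.sum_congr rfl fun r _ => ?_))
  have h1 : D.w r = D.rule.law {r} := (D.law_singleton r).symm
  rw [h1]
  rfl

end Data

end rule

end Vale.Agent.P331.H819
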